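import Mathlib

namespace Vale.Agent.Results.P061.ThinConstantAtLeastFour

/-- `cutSize G S` is the number of ordered pairs `(u, v)` with `u ∈ S`, `v ∉ S` and `u`, `v`
adjacent in `G`; that is, the number of edges of the simple graph `G` with exactly one endpoint
in `S` (the size of the cut `δ_G(S)`). -/
noncomputable def cutSize {V : Type} (G : SimpleGraph V) (S : Set V) : ℕ :=
  Set.ncard {p : V × V | p.1 ∈ S ∧ p.2 ∉ S ∧ G.Adj p.1 p.2}

theorem cutSize_top {V : Type} [Finite V] (S : Set V) :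
    cutSize (⊤ : SimpleGraph V) S = S.ncard * Sᶜ.ncard := by
  unfold cutSize
  rw [← Set.ncard_prod]
  congr 1
  ext p
  simp only [Set.mem_ofPred_eq, SimpleGraph.top_adj, Set.mem_prod, Set.mem_compl_iff]
  constructor
  · rintro ⟨h1, h2, _⟩
    exact ⟨h1, h2⟩
  · rintro ⟨h1, h2⟩
    refine ⟨h1, h2, ?_⟩
    intro h
    rw [h] at h1
    exact h2 h1

theorem cutSize_tree {V : Type} [Fintype V] (T : SimpleGraph V) (hT : T.IsTree) :
    ∃ S : Set V, cutSize T S + 1 = Fintype.card V := by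
  classical
  obtain ⟨c⟩ := hT.isAcyclic.colorable_two
  refine ⟨{v | c v = 0}, ?_⟩
  have hcard := hT.card_edgeFinset
  have himg : (fun p : V × V => s(p.1, p.2)) ''
      {p : V × V | p.1 ∈ {v | c v = 0} ∧ p.2 ∉ {v | c v = 0} ∧ T.Adj p.1 p.2} = T.edgeSet := by
    ext e
    constructor
    · rintro ⟨p, ⟨_, _, hadj⟩, rfl⟩
      exact hadj
    · refine Sym2.ind (fun u v => ?_) e
      intro huv
      have huv' : T.Adj u v := huv
      have hne : c u ≠ c v := c.valid huv'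
      by_cases hu : c u = 0
      · refine ⟨(u, v), ⟨hu, ?_, huv'⟩, rfl⟩
        intro hv
        exact hne (hu.trans hv.symm)
      · refine ⟨(v, u), ⟨?_, hu, huv'.symm⟩, Sym2.eq_swap⟩
        have h1 : c u = 1 := by omega
        show c v = 0
        have : c v ≠ 1 := fun h => hne (h1.trans h.symm)
        omega
  have hinj : Set.InjOn (fun p : V × V => s(p.1, p.2))
      {p : V × V | p.1 ∈ {v | c v = 0} ∧ p.2 ∉ {v | c v = 0} ∧ T.Adj p.1 p.2} := by
    rintro ⟨a, b⟩ ⟨ha, hb, _⟩ ⟨a', b'⟩ ⟨ha', hb', _⟩ h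
    simp only [Sym2.eq_iff] at h
    rcases h with ⟨h1, h2⟩ | ⟨h1, h2⟩
    · rw [h1, h2]
    · exfalso
      simp only [Set.mem_ofPred_eq] at ha hb ha' hb'
      rw [h1] at ha
      exact hb' ha
  unfold cutSize
  rw [← Set.InjOn.ncard_image hinj, himg, Set.ncard_eq_toFinset_card']
  exact hcard

theorem real_ineq (C : ℝ) (k a b : ℕ) (hk : 1 ≤ k) (hab : a + b = k + 1)
    (hC : (4 - C) * (k : ℝ) > 12) (hC4 : C < 4) :
    C / (k : ℝ) * ((a * b : ℕ) : ℝ) < (k : ℝ) := by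
  have hk' : (1 : ℝ) ≤ (k : ℝ) := by exact_mod_cast hk
  have hkpos : (0 : ℝ) < (k : ℝ) := by linarith
  have hab' : (a : ℝ) + (b : ℝ) = (k : ℝ) + 1 := by exact_mod_cast hab
  have ha0 : (0 : ℝ) ≤ (a : ℝ) := Nat.cast_nonneg a
  have hb0 : (0 : ℝ) ≤ (b : ℝ) := Nat.cast_nonneg b
  have h4 : 4 * ((a : ℝ) * (b : ℝ)) ≤ ((k : ℝ) + 1) ^ 2 := by
    nlinarith [sq_nonneg ((a : ℝ) - (b : ℝ))]
  have hab0 : (0 : ℝ) ≤ (a : ℝ) * (b : ℝ) := mul_nonneg ha0 hb0
  rw [Nat.cast_mul, div_mul_eq_mul_div, div_lt_iff₀ hkpos]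
  by_cases hC0 : C ≤ 0
  · have : C * ((a : ℝ) * (b : ℝ)) ≤ 0 := mul_nonpos_of_nonpos_of_nonneg hC0 hab0
    nlinarith
  · push Not at hC0
    have h1 : C * ((a : ℝ) * (b : ℝ)) ≤ C * (((k : ℝ) + 1) ^ 2 / 4) := by
      apply mul_le_mul_of_nonneg_left _ hC0.le
      linarith
    have h2 : C * (((k : ℝ) + 1) ^ 2 / 4) < (k : ℝ) * (k : ℝ) := by
      nlinarith
    linarith

/-- For every real `C < 4` there is `k₀` such that for every `k ≥ k₀` there is a simple graph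
(on `n ≥ 2` vertices) which is `k`-edge-connected (every cut has at least `k` edges) but such
that every spanning tree `T` has a cut `S` with `|δ_T(S)| > (C / k) |δ_G(S)|`, i.e. no spanning
tree is `(C / k)`-thin. -/
theorem result :
    ∀ C : ℝ, C < 4 → ∃ k₀ : ℕ, ∀ k : ℕ, k₀ ≤ k →
      ∃ (n : ℕ) (G : SimpleGraph (Fin n)), 2 ≤ n ∧
        (∀ S : Set (Fin n), S.Nonempty → S ≠ Set.univ → k ≤ cutSize G S) ∧
        (∀ T : SimpleGraph (Fin n), T ≤ G → T.IsTree →
          ∃ S : Set (Fin n), S.Nonempty ∧ S ≠ Set.univ ∧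
            C / (k : ℝ) * (cutSize G S : ℝ) < (cutSize T S : ℝ)) := by
  intro C hC4
  obtain ⟨m, hm⟩ := exists_nat_gt (12 / (4 - C))
  refine ⟨m + 1, ?_⟩
  intro k hk
  have hk1 : 1 ≤ k := by omega
  have h4C : 0 < 4 - C := by linarith
  have hkm : (m : ℝ) < (k : ℝ) := by exact_mod_cast (by omega : m < k)
  have hCk : (4 - C) * (k : ℝ) > 12 := by
    have : 12 / (4 - C) < (k : ℝ) := lt_trans hm hkm
    rw [div_lt_iff₀ h4C] at this
    linarith
  refine ⟨k + 1, ⊤, by omega, ?_, ?_⟩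
  · intro S hS hS'
    rw [cutSize_top]
    have hsum := Set.ncard_add_ncard_compl S
    rw [Nat.card_eq_fintype_card, Fintype.card_fin] at hsum
    have h1 : 1 ≤ S.ncard := by
      rw [Nat.succ_le_iff, Set.ncard_pos]
      exact hS
    have h2 : 1 ≤ Sᶜ.ncard := by
      rw [Nat.succ_le_iff, Set.ncard_pos]
      exact Set.nonempty_compl.mpr hS'
    nlinarith
  · intro T _ hT
    obtain ⟨S, hS⟩ := cutSize_tree T hT
    rw [Fintype.card_fin] at hS
    have hcut : cutSize T S = k := by omega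
    have hne : {p : Fin (k + 1) × Fin (k + 1) | p.1 ∈ S ∧ p.2 ∉ S ∧ T.Adj p.1 p.2}.Nonempty := by
      rw [← Set.ncard_pos]
      unfold cutSize at hcut
      omega
    obtain ⟨p, hp1, hp2, _⟩ := hne
    refine ⟨S, ⟨p.1, hp1⟩, ?_, ?_⟩
    · intro h
      rw [h] at hp2
      exact hp2 (Set.mem_univ _)
    · rw [cutSize_top, hcut]
      have hsum := Set.ncard_add_ncard_compl S
      rw [Nat.card_eq_fintype_card, Fintype.card_fin] at hsum
      exact real_ineq C k S.ncard Sᶜ.ncard hk1 hsum hCk hC4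

end Vale.Agent.Results.P061.ThinConstantAtLeastFour
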