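import Mathlib
import Vale.Agent.Results.P061.ThinConstantAtLeastFour

namespace Vale.Agent.Results.P061.ThinTreeExplicitBound

open Vale.Agent.Results.P061.ThinConstantAtLeastFour

theorem cutSize_le_top {V : Type} [Finite V] (G : SimpleGraph V) (S : Set V) :
    cutSize G S ≤ cutSize (⊤ : SimpleGraph V) S := by
  unfold cutSize
  apply Set.ncard_le_ncard _ (Set.toFinite _)
  rintro p ⟨h1, h2, h3⟩
  exact ⟨h1, h2, h3.ne⟩

theorem four_mul_le_sq (a b n : ℕ) (h : a + b = n) : 4 * (a * b) ≤ n ^ 2 := by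
  subst h
  nlinarith [sq_nonneg ((a : ℤ) - (b : ℤ)), sq_nonneg (a + b), Nat.zero_le (a * b),
    mul_self_nonneg ((a : ℤ) - b)]

/-- The bipartition cut of a tree: a nonempty proper vertex set crossed by all `n - 1` edges of
the tree, and by at most `n ^ 2 / 4` edges of any simple graph on the same vertices. -/
theorem tree_cut (n : ℕ) (hn : 2 ≤ n) (G T : SimpleGraph (Fin n)) (hT : T.IsTree) :
    ∃ S : Set (Fin n), S.Nonempty ∧ S ≠ Set.univ ∧ cutSize T S = n - 1 ∧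
      4 * cutSize G S ≤ n ^ 2 := by
  obtain ⟨S, hS⟩ := cutSize_tree T hT
  rw [Fintype.card_fin] at hS
  have hcut : cutSize T S = n - 1 := by omega
  have hne : {p : Fin n × Fin n | p.1 ∈ S ∧ p.2 ∉ S ∧ T.Adj p.1 p.2}.Nonempty := by
    rw [← Set.ncard_pos]
    unfold cutSize at hcut
    omega
  obtain ⟨p, hp1, hp2, _⟩ := hne
  refine ⟨S, ⟨p.1, hp1⟩, ?_, hcut, ?_⟩
  · intro h
    rw [h] at hp2
    exact hp2 (Set.mem_univ _)
  · have hsum := Set.ncard_add_ncard_compl S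
    rw [Nat.card_eq_fintype_card, Fintype.card_fin] at hsum
    have h1 := cutSize_le_top G S
    rw [cutSize_top] at h1
    have h2 := four_mul_le_sq S.ncard Sᶜ.ncard n hsum
    omega

theorem alpha_ineq (n c : ℕ) (hn : 2 ≤ n) (hc : 4 * c ≤ n ^ 2) (α : ℝ)
    (hα : α < 4 * ((n : ℝ) - 1) / (n : ℝ) ^ 2) : α * (c : ℝ) < ((n - 1 : ℕ) : ℝ) := by
  have hn' : (2 : ℝ) ≤ (n : ℝ) := by exact_mod_cast hn
  have hnpos : (0 : ℝ) < (n : ℝ) ^ 2 := by positivity
  have hc' : 4 * (c : ℝ) ≤ (n : ℝ) ^ 2 := by exact_mod_cast hc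
  have hc0 : (0 : ℝ) ≤ (c : ℝ) := Nat.cast_nonneg c
  have hcast : ((n - 1 : ℕ) : ℝ) = (n : ℝ) - 1 := by
    rw [Nat.cast_sub (by omega : 1 ≤ n)]
    simp
  rw [hcast]
  by_cases h0 : α ≤ 0
  · have : α * (c : ℝ) ≤ 0 := mul_nonpos_of_nonpos_of_nonneg h0 hc0
    linarith
  · push Not at h0
    rw [lt_div_iff₀ hnpos] at hα
    have h1 : α * (c : ℝ) ≤ α * ((n : ℝ) ^ 2 / 4) := by
      apply mul_le_mul_of_nonneg_left _ h0.le
      linarith
    have h2 : α * ((n : ℝ) ^ 2 / 4) < (n : ℝ) - 1 := by linarith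
    linarith

/-- **Explicit thinness bounds.**

1. For every `n ≥ 2`, every simple graph `G` on `n` vertices and every tree `T` on the same
   vertex set (in particular every spanning tree of `G`) there is a nonempty proper vertex set
   `S` with `|δ_T(S)| = n - 1`, `4 |δ_G(S)| ≤ n²`, and hence `α |δ_G(S)| < |δ_T(S)|` for every
   real `α < 4 (n - 1) / n²`: no simple graph on `n` vertices has an `α`-thin spanning tree for
   such `α`.
2. For every `k ≥ 1` the complete graph on `k + 1` vertices is `k`-edge-connected, and for every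
   real `C < 4 k² / (k + 1)²` none of its spanning trees is `(C / k)`-thin.
3. (The statement of `ThinConstantAtLeastFour`.) For every real `C < 4` there is `k₀` such that
   for every `k ≥ k₀` some `k`-edge-connected simple graph has no `(C / k)`-thin spanning
   tree. -/
theorem result :
    (∀ n : ℕ, 2 ≤ n → ∀ G T : SimpleGraph (Fin n), T.IsTree →
      ∃ S : Set (Fin n), S.Nonempty ∧ S ≠ Set.univ ∧ cutSize T S = n - 1 ∧
        4 * cutSize G S ≤ n ^ 2 ∧
        ∀ α : ℝ, α < 4 * ((n : ℝ) - 1) / (n : ℝ) ^ 2 →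
          α * (cutSize G S : ℝ) < (cutSize T S : ℝ)) ∧
    (∀ k : ℕ, 1 ≤ k →
      (∀ S : Set (Fin (k + 1)), S.Nonempty → S ≠ Set.univ →
        k ≤ cutSize (⊤ : SimpleGraph (Fin (k + 1))) S) ∧
      (∀ T : SimpleGraph (Fin (k + 1)), T.IsTree →
        ∀ C : ℝ, C < 4 * (k : ℝ) ^ 2 / ((k : ℝ) + 1) ^ 2 →
          ∃ S : Set (Fin (k + 1)), S.Nonempty ∧ S ≠ Set.univ ∧
            C / (k : ℝ) * (cutSize (⊤ : SimpleGraph (Fin (k + 1))) S : ℝ)
              < (cutSize T S : ℝ))) ∧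
    (∀ C : ℝ, C < 4 → ∃ k₀ : ℕ, ∀ k : ℕ, k₀ ≤ k →
      ∃ (n : ℕ) (G : SimpleGraph (Fin n)), 2 ≤ n ∧
        (∀ S : Set (Fin n), S.Nonempty → S ≠ Set.univ → k ≤ cutSize G S) ∧
        (∀ T : SimpleGraph (Fin n), T ≤ G → T.IsTree →
          ∃ S : Set (Fin n), S.Nonempty ∧ S ≠ Set.univ ∧
            C / (k : ℝ) * (cutSize G S : ℝ) < (cutSize T S : ℝ))) := by
  have part1 : ∀ n : ℕ, 2 ≤ n → ∀ G T : SimpleGraph (Fin n), T.IsTree →
      ∃ S : Set (Fin n), S.Nonempty ∧ S ≠ Set.univ ∧ cutSize T S = n - 1 ∧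
        4 * cutSize G S ≤ n ^ 2 ∧
        ∀ α : ℝ, α < 4 * ((n : ℝ) - 1) / (n : ℝ) ^ 2 →
          α * (cutSize G S : ℝ) < (cutSize T S : ℝ) := by
    intro n hn G T hT
    obtain ⟨S, hS1, hS2, hS3, hS4⟩ := tree_cut n hn G T hT
    refine ⟨S, hS1, hS2, hS3, hS4, ?_⟩
    intro α hα
    rw [hS3]
    exact alpha_ineq n (cutSize G S) hn hS4 α hα
  refine ⟨part1, ?_, ThinConstantAtLeastFour.result⟩
  intro k hk
  constructor
  · intro S hS hS'
    rw [cutSize_top]
    have hsum := Set.ncard_add_ncard_compl S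
    rw [Nat.card_eq_fintype_card, Fintype.card_fin] at hsum
    have h1 : 1 ≤ S.ncard := by
      rw [Nat.succ_le_iff, Set.ncard_pos]
      exact hS
    have h2 : 1 ≤ Sᶜ.ncard := by
      rw [Nat.succ_le_iff, Set.ncard_pos]
      exact Set.nonempty_compl.mpr hS'
    nlinarith
  · intro T hT C hC
    obtain ⟨S, hS1, hS2, _, _, hS5⟩ := part1 (k + 1) (by omega) ⊤ T hT
    refine ⟨S, hS1, hS2, ?_⟩
    apply hS5
    have hkpos : (0 : ℝ) < (k : ℝ) := by exact_mod_cast hk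
    have hk1pos : (0 : ℝ) < ((k : ℝ) + 1) ^ 2 := by positivity
    have hcast : (((k + 1 : ℕ) : ℝ)) = (k : ℝ) + 1 := by push_cast; ring
    rw [hcast]
    rw [div_lt_div_iff₀ hkpos hk1pos]
    rw [lt_div_iff₀ hk1pos] at hC
    have : (k : ℝ) + 1 - 1 = (k : ℝ) := by ring
    rw [this]
    nlinarith

end Vale.Agent.Results.P061.ThinTreeExplicitBound
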